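import Mathlib
import Vale.Agent.P225.Build
import Vale.Agent.P225.HarmB
import Vale.Agent.P225.Count
import Vale.Agent.P225.Dist
import Vale.Agent.P225.LinInd

/-! A complete metric on `ℝ⁴` with nonnegative Ricci curvature and more harmonic functions of
polynomial growth of degree at most `k` than the Euclidean space. -/

open scoped ContDiff Matrix Topology
open Filter Set

noncomputable section

namespace Vale.Agent.Results.P225.Counter

open Vale.Agent.P225

theorem exp_le_rpow {c : ℝ} (hc : 0 < c) (x : E) :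
    Real.exp (c * max (tau x) 0) ≤ (1 + x ⬝ᵥ x) ^ (c / 2) := by
  have h0 : 0 ≤ x ⬝ᵥ x := by
    by_cases hx : x = 0
    · simp [hx]
    · exact (dot_self_pos hx).le
  rcases le_total (tau x) 0 with h | h
  · rw [max_eq_right h, mul_zero, Real.exp_zero]
    exact Real.one_le_rpow (by linarith) (by positivity)
  · rw [max_eq_left h]
    by_cases hx : x = 0
    · simp [hx, tau]
    · have hp := dot_self_pos hx
      have : Real.exp (c * tau x) = (x ⬝ᵥ x) ^ (c / 2) := by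
        rw [Real.rpow_def_of_pos hp, tau]; congr 1; ring
      rw [this]
      exact Real.rpow_le_rpow h0 (by linarith) (by positivity)

theorem main {s : ℕ} (hs : 10000 ≤ s) : ∃ G : E → Mat, IsMetric G ∧ Complete G ∧ RicNonneg G ∧
    ∃ u : GdAll s × Fin 2 → E → ℝ, LinearIndependent ℝ u ∧ ∀ i, PolyHarmonic G (8 * s) (u i) := by
  obtain ⟨M, hM, hM', hser⟩ := series_bd
  obtain ⟨D, p, c, hc0, hc1, hcκ, hric, hsol⟩ := build hs hM
  have hmem : ∀ i : GdAll s, i.1.1 ∈ secs s ∧ i.1.2 ∈ Gd s i.1.1 := by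
    rintro ⟨⟨σ, n⟩, hi⟩
    simp only [GdAll, Finset.mem_biUnion, Finset.mem_image, Prod.mk.injEq] at hi
    obtain ⟨σ', h1, n', h2, rfl, rfl⟩ := hi
    exact ⟨h1, h2⟩
  have hsec : ∀ i : GdAll s, 1 ≤ i.1.1.1 ∧ i.1.1.1 < 4 * s + 1 ∧ 1 ≤ i.1.1.2 := by
    intro i
    have := (hmem i).1
    simp only [secs, Finset.mem_product, Finset.mem_Icc] at this
    omega
  have hB : ∀ i : GdAll s, i.1.2 ∈ Bk (4 * s + 1) i.1.1 (10 * s) := fun i =>
    (Finset.mem_filter.mp (hmem i).2).1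
  choose C a k v v' hR ha ha' using fun i : GdAll s => hsol _ (hmem i).1 _ (hmem i).2
  obtain ⟨l, hl, hlow⟩ := met_lower (q := 4 * s + 1) p hc1 hcκ
  obtain ⟨hcomp, C0, hC0⟩ := complete_of_lower (met_isMetric p) hc0 hc1 hl hlow
  let u : GdAll s × Fin 2 → E → ℝ := fun i x =>
    ∑' n, term (4 * s + 1) p i.1.1.1 M (Complex.I ^ (i.2 : ℕ)) (v i.1) n x
  have H := fun i : GdAll s × Fin 2 => hser p i.1.1.1 (hsec i.1).1 (hsec i.1).2.1 _ _ _ _ _ _
    (Complex.I ^ (i.2 : ℕ)) (hR i.1)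
  refine ⟨met (4 * s + 1) p, met_isMetric p, hcomp, hric, u, ?_, fun i => ?_⟩
  · choose C' hC' using fun i : GdAll s × Fin 2 => (H i).2.2 (10 * s)
      (Bk (4 * s + 1) i.1.1.1 (10 * s))
      (fun n hn => not_le.mp fun h => hn ((mem_Bk (hsec i.1).1 (hsec i.1).2.1).mpr h))
    refine linInd_of_jet (K := 10 * s)
      (fun i : GdAll s => (mm (4 * s + 1) i.1.1 i.1.2, i.1.1.2, i.1.2.2))
      (fun i j h => Subtype.ext (mode_inj (hmem i).1 (hmem j).1 h)) (fun i => (hsec i).2.2)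
      (fun i => (mem_Bk (hsec i).1 (hsec i).2.1).mp (hB i)) u
      (fun i => a i i.1.2 / M ^ lv (4 * s + 1) i.1.1 i.1.2)
      (fun i => div_ne_zero (ha i) (by positivity)) (∑ i, |C' i|) fun i e x hx => ?_
    have h1 := hC' (i, e) x hx
    rw [Finset.sum_eq_single_of_mem i.1.2 (hB i)
      (fun m hm hne => by simp only [ha' i m hm hne, zero_div, zero_mul])] at h1
    refine h1.trans (mul_le_mul_of_nonneg_right ((le_abs_self _).trans ?_) (by positivity))
    exact Finset.single_le_sum (f := fun i => |C' i|) (fun _ _ => abs_nonneg _) (Finset.mem_univ _)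
  · obtain ⟨h1, h2⟩ := series_harm p i.1.1.1 (hsec i.1).1 (hsec i.1).2.1 hM hM'
      (Complex.I ^ (i.2 : ℕ)) (hR i.1) (H i).1
    obtain ⟨C', hC'⟩ := (H i).2.1
    refine ⟨h1, h2, |C'| * C0 ^ (8 * s), fun x => (hC' x).trans ?_⟩
    have hF := p.F_lower hcκ (le_max_right (tau x) 0)
    have h3 : Real.exp ((8 * s + 1) * c * max (tau x) 0) / p.F (max (tau x) 0) ≤
        Real.exp (c * max (tau x) 0) ^ (8 * s) := by
      rw [div_le_iff₀ (p.F_pos _)]
      refine le_trans (le_of_eq ?_) (mul_le_mul_of_nonneg_left hF (by positivity))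
      rw [← Real.exp_nat_mul, ← Real.exp_add]
      congr 1; push_cast; ring
    have h4 : Real.exp (c * max (tau x) 0) ^ (8 * s) ≤
        (C0 * (1 + rdist (met (4 * s + 1) p) 0 x)) ^ (8 * s) :=
      pow_le_pow_left₀ (Real.exp_pos _).le ((exp_le_rpow hc0 x).trans (hC0 x)) _
    rw [mul_assoc |C'|, ← mul_pow]
    exact mul_le_mul (le_abs_self _) (h3.trans h4)
      (div_nonneg (Real.exp_pos _).le (p.F_pos _).le) (abs_nonneg _)

theorem result : ∃ G : (Fin 4 → ℝ) → Matrix (Fin 4) (Fin 4) ℝ,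
    IsMetric G ∧ Complete G ∧ RicNonneg G ∧ ∃ k : ℕ, 1 ≤ k ∧ ∃ N : ℕ,
      (4 + k - 1).choose k + (4 + k - 2).choose (k - 1) < N ∧
      ∃ u : Fin N → (Fin 4 → ℝ) → ℝ, LinearIndependent ℝ u ∧ ∀ i, PolyHarmonic G k (u i) := by
  obtain ⟨s, hs⟩ : ∃ s : ℕ, 10000 ≤ s := ⟨_, le_rfl⟩
  obtain ⟨G, h1, h2, h3, u, hu, hu'⟩ := main hs
  refine ⟨G, h1, h2, h3, 8 * s, by omega, Fintype.card (GdAll s × Fin 2), ?_,
    u ∘ (Fintype.equivFin _).symm, hu.comp _ (Equiv.injective _), fun i => hu' _⟩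
  have := count_GdAll hs
  rw [Fintype.card_prod, Fintype.card_coe, Fintype.card_fin]
  omega

end Vale.Agent.Results.P225.Counter
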